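import Mathlib

/-!
# Eigenvalues of the interchange Laplacian by colourings

Let `ρ` be a representation of `Perm α`, `E` an invariant subspace on which
`∑_{a,b} ρ (swap a b)` is the scalar `τ`.  Choose a colouring `c` of `α` and `u ∈ E`, `u ≠ 0`,
invariant under all permutations preserving `c`, with the largest possible number of
monochromatic pairs.  Then `τ ≤ ∑_l (size of the colour class l)²`.
-/

open Equiv Finset

namespace Vale.Agent.P162.H289

set_option linter.unusedSectionVars false

variable {α : Type*} [Fintype α] [DecidableEq α]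
variable {V : Type*} [AddCommGroup V] [Module ℝ V]

/-- `u` is invariant under the transpositions inside the colour classes of `c`. -/
def Inv (ρ : Perm α →* (V →ₗ[ℝ] V)) (c : α → α) (u : V) : Prop :=
  ∀ a b, c a = c b → ρ (swap a b) u = u

/-- the colour class. -/
def cl (c : α → α) (l : α) : Finset α := univ.filter fun a => c a = l

theorem mem_cl {c : α → α} {l a : α} : a ∈ cl c l ↔ c a = l := by simp [cl]

/-- number of monochromatic pairs. -/
def S (c : α → α) : ℕ := ∑ l, (cl c l).card ^ 2

theorem rho_mul_apply (ρ : Perm α →* (V →ₗ[ℝ] V)) (g h : Perm α) (u : V) :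
    ρ (g * h) u = ρ g (ρ h u) := by
  rw [map_mul]; rfl

theorem rho_one_apply (ρ : Perm α →* (V →ₗ[ℝ] V)) (u : V) : ρ 1 u = u := by
  rw [map_one]; rfl

/-- the moved vector. -/
def mv (ρ : Perm α →* (V →ₗ[ℝ] V)) (c : α → α) (P b : α) (u : V) : V :=
  u + ∑ a ∈ cl c P, ρ (swap a b) u

theorem swap_conj {x a b : α} (hxb : x ≠ b) (hxa : x ≠ a) :
    swap x b * swap a b = swap a b * swap x a := by
  have h : swap (swap a b x) (swap a b a) = swap a b * swap x a * (swap a b)⁻¹ :=
    Equiv.swap_apply_apply _ _ _
  rw [swap_apply_of_ne_of_ne hxa hxb, swap_apply_left] at h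
  rw [h]; simp [mul_assoc]

theorem inv_mv (ρ : Perm α →* (V →ₗ[ℝ] V)) {c : α → α} {P b : α} {u : V}
    (hu : Inv ρ c u) (hb : c b ≠ P) : Inv ρ (Function.update c b P) (mv ρ c P b u) := by
  -- the case of two elements outside `P ∪ {b}`
  have hne : ∀ a ∈ cl c P, a ≠ b := by
    rintro a ha rfl
    exact hb (mem_cl.1 ha)
  -- inside P
  have hPP : ∀ x y, x ∈ cl c P → y ∈ cl c P → ρ (swap x y) (mv ρ c P b u) = mv ρ c P b u := by
    intro x y hx hy
    have hxy : ρ (swap x y) u = u := hu x y (by rw [mem_cl.1 hx, mem_cl.1 hy])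
    unfold mv
    rw [map_add, hxy, map_sum]
    congr 1
    refine Finset.sum_bij' (fun a _ => swap x y a) (fun a _ => swap x y a) ?_ ?_ ?_ ?_ ?_
    · intro a ha
      rcases eq_or_ne a x with rfl | h1
      · simpa using hy
      rcases eq_or_ne a y with rfl | h2
      · simpa using hx
      rwa [swap_apply_of_ne_of_ne h1 h2]
    · intro a ha
      rcases eq_or_ne a x with rfl | h1
      · simpa using hy
      rcases eq_or_ne a y with rfl | h2
      · simpa using hx
      rwa [swap_apply_of_ne_of_ne h1 h2]
    · intro a _; simp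
    · intro a _; simp
    · intro a ha
      rw [← rho_mul_apply]
      have h1 : swap x y * swap a b = swap (swap x y a) b * swap x y := by
        have h2 : swap x y b = b :=
          swap_apply_of_ne_of_ne (hne x hx).symm (hne y hy).symm
        conv_rhs => rw [← h2]
        rw [Equiv.swap_apply_apply]
        simp [mul_assoc]
      rw [h1, rho_mul_apply, hxy]
  -- x in P, y = b
  have hPb : ∀ x, x ∈ cl c P → ρ (swap x b) (mv ρ c P b u) = mv ρ c P b u := by
    intro x hx
    unfold mv
    rw [map_add, map_sum]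
    rw [← Finset.add_sum_erase _ _ hx, ← Finset.add_sum_erase _ _ hx]
    have h0 : ρ (swap x b) (ρ (swap x b) u) = u := by
      rw [← rho_mul_apply, swap_mul_self, rho_one_apply]
    have h1 : ∀ a ∈ (cl c P).erase x, ρ (swap x b) (ρ (swap a b) u) = ρ (swap a b) u := by
      intro a ha
      have ha' := Finset.mem_of_mem_erase ha
      rw [← rho_mul_apply, swap_conj (hne x hx) (Finset.ne_of_mem_erase ha).symm, rho_mul_apply,
        hu x a (by rw [mem_cl.1 hx, mem_cl.1 ha'])]
    rw [h0, Finset.sum_congr rfl h1]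
    abel
  intro x y hxy
  by_cases hxb : x = b
  · subst hxb
    by_cases hyb : y = x
    · subst hyb; rw [swap_self]; exact rho_one_apply ρ _
    · rw [Function.update_self, Function.update_of_ne hyb] at hxy
      rw [swap_comm]
      exact hPb y (mem_cl.2 hxy.symm)
  · by_cases hyb : y = b
    · subst hyb
      rw [Function.update_self, Function.update_of_ne hxb] at hxy
      exact hPb x (mem_cl.2 hxy)
    · rw [Function.update_of_ne hxb, Function.update_of_ne hyb] at hxy
      by_cases hx : c x = P
      · exact hPP x y (mem_cl.2 hx) (mem_cl.2 (hxy ▸ hx))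
      · have hy : c y ≠ P := hxy ▸ hx
        unfold mv
        rw [map_add, hu x y hxy, map_sum]
        congr 1
        refine Finset.sum_congr rfl fun a ha => ?_
        have hax : a ≠ x := by rintro rfl; exact hx (mem_cl.1 ha)
        have hay : a ≠ y := by rintro rfl; exact hy (mem_cl.1 ha)
        have h1 : swap x y * swap a b = swap a b * swap x y := by
          have h2 : swap (swap x y a) (swap x y b) = swap x y * swap a b * (swap x y)⁻¹ :=
            Equiv.swap_apply_apply _ _ _
          rw [swap_apply_of_ne_of_ne hax hay, swap_apply_of_ne_of_ne (Ne.symm hxb) (Ne.symm hyb)]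
            at h2
          exact (mul_inv_eq_iff_eq_mul.1 h2.symm)
        rw [← rho_mul_apply, h1, rho_mul_apply, hu x y hxy]

/-- the size of the classes after the move. -/
theorem card_cl_update {c : α → α} {P b : α} (hb : c b ≠ P) (l : α) :
    ((cl (Function.update c b P) l).card : ℤ) =
      (cl c l).card + (if l = P then 1 else 0) - (if l = c b then 1 else 0) := by
  have hP : (cl (Function.update c b P) P) = insert b (cl c P) := by
    ext a
    rw [mem_cl, Finset.mem_insert, mem_cl]
    by_cases h : a = b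
    · subst h; simp
    · simp [Function.update_of_ne h, h]
  have hc : (cl (Function.update c b P) (c b)) = (cl c (c b)).erase b := by
    ext a
    rw [mem_cl, Finset.mem_erase, mem_cl]
    by_cases h : a = b
    · subst h; simp [Ne.symm hb]
    · simp [Function.update_of_ne h, h]
  by_cases h1 : l = P
  · subst h1
    have h2 : l ≠ c b := Ne.symm hb
    rw [hP, Finset.card_insert_of_notMem (by rw [mem_cl]; exact hb)]
    simp [h2]
  · by_cases h2 : l = c b
    · subst h2
      have h3 : b ∈ cl c (c b) := mem_cl.2 rfl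
      have h4 : 1 ≤ (cl c (c b)).card := Finset.card_pos.2 ⟨b, h3⟩
      rw [hc, Finset.card_erase_of_mem h3]
      simp [h1]
      omega
    · have h3 : (cl (Function.update c b P) l) = cl c l := by
        ext a
        rw [mem_cl, mem_cl]
        by_cases h : a = b
        · subst h; simp [Ne.symm h1, Ne.symm h2]
        · rw [Function.update_of_ne h]
      rw [h3]; simp [h1, h2]

theorem S_update {c : α → α} {P b : α} (hb : c b ≠ P)
    (hle : (cl c (c b)).card ≤ (cl c P).card) : S c < S (Function.update c b P) := by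
  have h : ((S (Function.update c b P) : ℕ) : ℤ) =
      (S c : ℤ) + 2 * (cl c P).card - 2 * (cl c (c b)).card + 2 := by
    unfold S
    push_cast
    have h1 : ∀ l : α, (((cl (Function.update c b P) l).card : ℤ)) ^ 2 =
        ((cl c l).card : ℤ) ^ 2 + (if l = P then 2 * ((cl c l).card : ℤ) + 1 else 0) +
          (if l = c b then - 2 * ((cl c l).card : ℤ) + 1 else 0) := by
      intro l
      rw [card_cl_update hb]
      by_cases h1 : l = P
      · have h2 : l ≠ c b := by rw [h1]; exact Ne.symm hb
        simp only [h1, if_true]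
        rw [if_neg (by rw [← h1]; exact h2), if_neg (by rw [← h1]; exact h2)]
        ring
      · by_cases h2 : l = c b
        · simp only [h1, if_false, h2, if_true]
          rw [if_neg (by rw [← h2]; exact h1), if_neg (by rw [← h2]; exact h1)]
          ring
        · simp [h1, h2]
    rw [Finset.sum_congr rfl fun l _ => h1 l, Finset.sum_add_distrib, Finset.sum_add_distrib,
      Finset.sum_ite_eq' univ P, Finset.sum_ite_eq' univ (c b)]
    simp
    ring
  have h2 : ((S c : ℕ) : ℤ) < ((S (Function.update c b P) : ℕ) : ℤ) := by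
    rw [h]
    have : ((cl c (c b)).card : ℤ) ≤ (cl c P).card := by exact_mod_cast hle
    linarith
  exact_mod_cast h2

theorem sum_card_cl (c : α → α) : ∑ l, (cl c l).card = Fintype.card α := by
  have := Finset.card_eq_sum_card_fiberwise (f := c) (s := univ) (t := univ)
    (fun x _ => by simp)
  rw [Finset.card_univ] at this
  rw [this]; rfl

theorem S_le (c : α → α) : S c ≤ Fintype.card α * Fintype.card α := by
  have h : ∀ l, (cl c l).card ^ 2 ≤ (cl c l).card * Fintype.card α := by
    intro l
    rw [sq]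
    exact Nat.mul_le_mul_left _ (Finset.card_le_univ _)
  calc S c ≤ ∑ l, (cl c l).card * Fintype.card α := Finset.sum_le_sum fun l _ => h l
    _ = Fintype.card α * Fintype.card α := by rw [← Finset.sum_mul, sum_card_cl]

/-- The main estimate. -/
theorem exists_color (ρ : Perm α →* (V →ₗ[ℝ] V)) (E : Submodule ℝ V)
    (hE : ∀ g, ∀ u ∈ E, ρ g u ∈ E) (hne : E ≠ ⊥) (τ : ℝ)
    (hτ : ∀ u ∈ E, ∑ a, ∑ b, ρ (swap a b) u = τ • u) :
    ∃ c : α → α, (∃ u ∈ E, u ≠ 0 ∧ Inv ρ c u) ∧ τ ≤ ∑ l, ((cl c l).card : ℝ) ^ 2 := by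
  classical
  -- colourings with an invariant vector
  let Q : Set (α → α) := {c | ∃ u ∈ E, u ≠ 0 ∧ Inv ρ c u}
  have hQ : Q.Nonempty := by
    obtain ⟨u, hu, hu0⟩ := Submodule.exists_mem_ne_zero_of_ne_bot hne
    refine ⟨id, u, hu, hu0, ?_⟩
    intro a b hab
    have : a = b := hab
    subst this
    rw [swap_self]
    exact rho_one_apply ρ u
  obtain ⟨c, hcQ, hmax⟩ : ∃ c ∈ Q, ∀ c' ∈ Q, S c' ≤ S c := by
    obtain ⟨c, hc, hmax⟩ := Set.exists_max_image Q S (Set.toFinite Q) hQ
    exact ⟨c, hc, hmax⟩
  obtain ⟨u, hu, hu0, hinv⟩ := hcQ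
  refine ⟨c, ⟨u, hu, hu0, hinv⟩, ?_⟩
  -- cross sums
  have hcross : ∀ P b, c b ≠ P → (cl c (c b)).card ≤ (cl c P).card →
      ∑ a ∈ cl c P, ρ (swap a b) u = - u := by
    intro P b hb hle
    have h1 := inv_mv ρ hinv hb
    have h2 : mv ρ c P b u ∈ E := by
      unfold mv
      exact E.add_mem hu (E.sum_mem fun a _ => hE _ _ hu)
    by_contra hcon
    have h3 : mv ρ c P b u ≠ 0 := by
      intro h0
      apply hcon
      unfold mv at h0
      exact (neg_eq_of_add_eq_zero_right h0).symm
    have h4 := hmax _ (⟨_, h2, h3, h1⟩ : Function.update c b P ∈ Q)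
    exact absurd (S_update hb hle) (not_lt.2 h4)
  have hB : ∀ P l : α, ∃ κ : ℝ, ∑ b ∈ cl c P, ∑ a ∈ cl c l, ρ (swap a b) u = κ • u ∧
      κ ≤ if P = l then ((cl c l).card : ℝ) ^ 2 else 0 := by
    intro P l
    by_cases hPl : P = l
    · subst hPl
      refine ⟨((cl c P).card : ℝ) ^ 2, ?_, by simp⟩
      have h1 : ∀ b ∈ cl c P, ∑ a ∈ cl c P, ρ (swap a b) u = ((cl c P).card : ℝ) • u := by
        intro b hb
        have h2 : ∀ a ∈ cl c P, ρ (swap a b) u = u := by
          intro a ha
          exact hinv a b (by rw [mem_cl.1 ha, mem_cl.1 hb])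
        rw [Finset.sum_congr rfl h2, Finset.sum_const, Nat.cast_smul_eq_nsmul]
      rw [Finset.sum_congr rfl h1, Finset.sum_const, ← Nat.cast_smul_eq_nsmul ℝ, smul_smul, sq]
    · rw [if_neg hPl]
      rcases le_total (cl c P).card (cl c l).card with hle | hle
      · refine ⟨-((cl c P).card : ℝ), ?_, by simp⟩
        have h1 : ∀ b ∈ cl c P, ∑ a ∈ cl c l, ρ (swap a b) u = - u := by
          intro b hb
          have hb' := mem_cl.1 hb
          exact hcross l b (by rw [hb']; exact hPl) (by rw [hb']; exact hle)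
        rw [Finset.sum_congr rfl h1, Finset.sum_const, ← Nat.cast_smul_eq_nsmul ℝ]
        simp
      · refine ⟨-((cl c l).card : ℝ), ?_, by simp⟩
        rw [Finset.sum_comm]
        have h1 : ∀ a ∈ cl c l, ∑ b ∈ cl c P, ρ (swap a b) u = - u := by
          intro a ha
          have ha' := mem_cl.1 ha
          have h2 := hcross P a (by rw [ha']; exact Ne.symm hPl) (by rw [ha']; exact hle)
          rw [← h2]
          refine Finset.sum_congr rfl fun b _ => ?_
          rw [swap_comm]
        rw [Finset.sum_congr rfl h1, Finset.sum_const, ← Nat.cast_smul_eq_nsmul ℝ]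
        simp
  choose κ hκ hκle using hB
  have htot : ∑ a, ∑ b, ρ (swap a b) u = (∑ P, ∑ l, κ P l) • u := by
    have h1 : ∀ f : α → V, ∑ a, f a = ∑ l, ∑ a ∈ cl c l, f a := by
      intro f
      have := Finset.sum_fiberwise_of_maps_to (s := univ) (t := univ) (g := c)
        (fun x _ => Finset.mem_univ _) f
      rw [← this]; rfl
    rw [Finset.sum_comm, h1]
    rw [Finset.sum_smul]
    refine Finset.sum_congr rfl fun P _ => ?_
    rw [Finset.sum_smul]
    have h2 : ∀ b ∈ cl c P, ∑ a, ρ (swap a b) u = ∑ l, ∑ a ∈ cl c l, ρ (swap a b) u :=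
      fun b _ => h1 _
    rw [Finset.sum_congr rfl h2, Finset.sum_comm]
    exact Finset.sum_congr rfl fun l _ => hκ P l
  rw [hτ u hu] at htot
  have hτeq : τ = ∑ P, ∑ l, κ P l := by
    have h1 : (τ - ∑ P, ∑ l, κ P l) • u = 0 := by rw [sub_smul, htot, sub_self]
    rcases smul_eq_zero.1 h1 with h2 | h2
    · linarith
    · exact absurd h2 hu0
  rw [hτeq]
  refine Finset.sum_le_sum fun P _ => ?_
  calc ∑ l, κ P l ≤ ∑ l, (if P = l then ((cl c l).card : ℝ) ^ 2 else 0) :=
        Finset.sum_le_sum fun l _ => hκle P l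
    _ = ((cl c P).card : ℝ) ^ 2 := by simp

end Vale.Agent.P162.H289
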