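import Vale.Agent.P162.H289.Color
import Vale.Agent.P162.H474.Basic

/-!
# Level theory for the interchange Laplacian in the regular representation

`jun (x, y)` is the indicator of `{h | h⁻¹ (x i) = y i for all i}`, `L k` the span of these
functions for `k`-tuples.  An eigenvector of the interchange Laplacian `R` which is orthogonal to
`L j` has an eigenvalue `≥ (j + 1) N / 2`.
-/

open Equiv Finset
open scoped InnerProductSpace

set_option linter.unusedSectionVars false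

namespace Vale.Agent.P162.H289

variable {α : Type*} [Fintype α] [DecidableEq α]



/-- indicator of `h⁻¹ (x i) = y i`. -/
noncomputable def jun {k : ℕ} (p : (Fin k → α) × (Fin k → α)) : EuclideanSpace ℝ (Perm α) :=
  WithLp.toLp 2 fun h => if ∀ i, h⁻¹ (p.1 i) = p.2 i then 1 else 0

/-- the span of the `k`-juntas. -/
noncomputable def L (α : Type*) [Fintype α] [DecidableEq α] (k : ℕ) :
    Submodule ℝ (EuclideanSpace ℝ (Perm α)) :=
  Submodule.span ℝ (Set.range (jun (α := α) (k := k)))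

theorem jun_apply {k : ℕ} (p : (Fin k → α) × (Fin k → α)) (h : Perm α) :
    jun p h = if ∀ i, h⁻¹ (p.1 i) = p.2 i then (1 : ℝ) else 0 := rfl

theorem jun_mem {k : ℕ} (p : (Fin k → α) × (Fin k → α)) : jun p ∈ L α k :=
  Submodule.subset_span ⟨p, rfl⟩

theorem finrank_L (k : ℕ) : Module.finrank ℝ (L α k) ≤ Fintype.card α ^ (2 * k) := by
  have h := finrank_range_le_card (R := ℝ) (jun (α := α) (k := k))
  have h2 : Fintype.card ((Fin k → α) × (Fin k → α)) = Fintype.card α ^ (2 * k) := by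
    simp [two_mul, pow_add]
  rw [h2] at h
  exact h

/-- The regular representation. -/
def IsReg (ρ : Perm α →* (EuclideanSpace ℝ (Perm α) →L[ℝ] EuclideanSpace ℝ (Perm α))) : Prop :=
  ∀ (g : Perm α) (f : EuclideanSpace ℝ (Perm α)) (h : Perm α), (ρ g f) h = f (g⁻¹ * h)

variable {ρ : Perm α →* (EuclideanSpace ℝ (Perm α) →L[ℝ] EuclideanSpace ℝ (Perm α))}

theorem reg_mul (g h : Perm α) (u : EuclideanSpace ℝ (Perm α)) : ρ (g * h) u = ρ g (ρ h u) := by
  rw [map_mul]; rfl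

theorem reg_one (u : EuclideanSpace ℝ (Perm α)) : ρ 1 u = u := by
  rw [map_one]; rfl

theorem inner_reg (hρ : IsReg ρ) (g : Perm α) (u v : EuclideanSpace ℝ (Perm α)) :
    ⟪ρ g u, ρ g v⟫_ℝ = ⟪u, v⟫_ℝ := by
  simp only [PiLp.inner_apply]
  simp_rw [hρ g]
  exact Equiv.sum_comp (Equiv.mulLeft g⁻¹) fun h => ⟪u h, v h⟫_ℝ

theorem inner_reg_left (hρ : IsReg ρ) (g : Perm α) (u v : EuclideanSpace ℝ (Perm α)) :
    ⟪ρ g u, v⟫_ℝ = ⟪u, ρ g⁻¹ v⟫_ℝ := by
  rw [← inner_reg hρ g u (ρ g⁻¹ v), ← reg_mul, mul_inv_cancel, reg_one]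

theorem norm_reg (hρ : IsReg ρ) (g : Perm α) (v : EuclideanSpace ℝ (Perm α)) : ‖ρ g v‖ = ‖v‖ := by
  have h := inner_reg hρ g v v
  rw [real_inner_self_eq_norm_sq, real_inner_self_eq_norm_sq] at h
  exact (pow_left_inj₀ (norm_nonneg _) (norm_nonneg _) two_ne_zero).1 h

theorem reg_jun (hρ : IsReg ρ) {k : ℕ} (g : Perm α) (p : (Fin k → α) × (Fin k → α)) :
    ρ g (jun p) = jun (fun i => g (p.1 i), p.2) := by
  ext h
  rw [hρ, jun_apply, jun_apply]
  simp [mul_inv_rev]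

theorem reg_mem_L (hρ : IsReg ρ) {k : ℕ} (g : Perm α) {u : EuclideanSpace ℝ (Perm α)} (hu : u ∈ L α k) :
    ρ g u ∈ L α k := by
  unfold L at hu ⊢
  induction hu using Submodule.span_induction with
  | mem x hx =>
    obtain ⟨p, rfl⟩ := hx
    rw [reg_jun hρ]
    exact Submodule.subset_span ⟨_, rfl⟩
  | zero => rw [map_zero]; exact Submodule.zero_mem _
  | add x y _ _ hx hy => rw [map_add]; exact Submodule.add_mem _ hx hy
  | smul a x _ hx => rw [map_smul]; exact Submodule.smul_mem _ _ hx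

theorem reg_mem_orth (hρ : IsReg ρ) {k : ℕ} (g : Perm α) {u : EuclideanSpace ℝ (Perm α)} (hu : u ∈ (L α k)ᗮ) :
    ρ g u ∈ (L α k)ᗮ := by
  rw [Submodule.mem_orthogonal] at hu ⊢
  intro v hv
  have h := hu _ (reg_mem_L hρ g⁻¹ hv)
  rw [inner_reg_left hρ, inv_inv] at h
  exact h

/-- the interchange Laplacian applied to a vector. -/
theorem R_apply (u : EuclideanSpace ℝ (Perm α)) : H474.R ρ u =
    (1/2 : ℝ) • (((Fintype.card α : ℝ) ^ 2) • u - ∑ a, ∑ b, ρ (swap a b) u) := by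
  unfold H474.R
  rw [ContinuousLinearMap.smul_apply]
  congr 1
  rw [ContinuousLinearMap.sum_apply]
  simp_rw [ContinuousLinearMap.sum_apply, ContinuousLinearMap.sub_apply,
    ContinuousLinearMap.one_apply, Finset.sum_sub_distrib]
  congr 1
  simp only [Finset.sum_const, Finset.card_univ, smul_smul]
  rw [← Nat.cast_smul_eq_nsmul ℝ, sq]
  push_cast
  rfl

theorem R_mem_L (hρ : IsReg ρ) {k : ℕ} {u : EuclideanSpace ℝ (Perm α)} (hu : u ∈ L α k) : H474.R ρ u ∈ L α k := by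
  rw [R_apply]
  exact Submodule.smul_mem _ _ (Submodule.sub_mem _ (Submodule.smul_mem _ _ hu)
    (Submodule.sum_mem _ fun a _ => Submodule.sum_mem _ fun b _ => reg_mem_L hρ _ hu))

theorem R_comm (g : Perm α) (u : EuclideanSpace ℝ (Perm α)) : H474.R ρ (ρ g u) = ρ g (H474.R ρ u) := by
  rw [R_apply, R_apply, map_smul, map_sub, map_smul, map_sum]
  congr 2
  have h1 : ∀ a b, ρ (swap a b) (ρ g u) = ρ g (ρ (swap (g⁻¹ a) (g⁻¹ b)) u) := by
    intro a b
    rw [← reg_mul, ← reg_mul]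
    congr 2
    rw [Equiv.swap_apply_apply]
    simp [mul_assoc]
  simp_rw [h1, map_sum]
  rw [← (Equiv.sum_comp (g⁻¹ : Perm α) fun a => ∑ b, ρ g (ρ (swap a b) u))]
  refine Finset.sum_congr rfl fun a _ => ?_
  rw [← (Equiv.sum_comp (g⁻¹ : Perm α) fun b => ρ g (ρ (swap (g⁻¹ a) b) u))]

theorem R_symm (hρ : IsReg ρ) : (H474.R ρ : EuclideanSpace ℝ (Perm α) →ₗ[ℝ] EuclideanSpace ℝ (Perm α)).IsSymmetric := by
  intro u v
  change ⟪H474.R ρ u, v⟫_ℝ = ⟪u, H474.R ρ v⟫_ℝ
  rw [R_apply, R_apply, inner_smul_left, inner_smul_right, inner_sub_left, inner_sub_right,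
    inner_smul_left, inner_smul_right, sum_inner, inner_sum]
  congr 2
  refine Finset.sum_congr rfl fun a _ => ?_
  rw [sum_inner, inner_sum]
  refine Finset.sum_congr rfl fun b _ => ?_
  rw [inner_reg_left hρ, swap_inv]

theorem R_nonneg (hρ : IsReg ρ) (u : EuclideanSpace ℝ (Perm α)) : 0 ≤ ⟪u, H474.R ρ u⟫_ℝ := by
  rw [R_apply, inner_smul_right, inner_sub_right, inner_smul_right, inner_sum]
  have h1 : ∀ a, ⟪u, ∑ b, ρ (swap a b) u⟫_ℝ ≤ (Fintype.card α : ℝ) * ⟪u, u⟫_ℝ := by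
    intro a
    rw [inner_sum]
    calc ∑ b, ⟪u, ρ (swap a b) u⟫_ℝ ≤ ∑ _b : α, ⟪u, u⟫_ℝ := by
          refine Finset.sum_le_sum fun b _ => ?_
          calc ⟪u, ρ (swap a b) u⟫_ℝ ≤ ‖u‖ * ‖ρ (swap a b) u‖ := real_inner_le_norm _ _
            _ = ⟪u, u⟫_ℝ := by rw [norm_reg hρ, real_inner_self_eq_norm_sq, sq]
      _ = (Fintype.card α : ℝ) * ⟪u, u⟫_ℝ := by
          rw [Finset.sum_const, Finset.card_univ, nsmul_eq_mul]
  have h2 : ∑ a, ⟪u, ∑ b, ρ (swap a b) u⟫_ℝ ≤ (Fintype.card α : ℝ) ^ 2 * ⟪u, u⟫_ℝ := by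
    calc ∑ a, ⟪u, ∑ b, ρ (swap a b) u⟫_ℝ ≤ ∑ _a : α, (Fintype.card α : ℝ) * ⟪u, u⟫_ℝ :=
          Finset.sum_le_sum fun a _ => h1 a
      _ = (Fintype.card α : ℝ) ^ 2 * ⟪u, u⟫_ℝ := by
          rw [Finset.sum_const, Finset.card_univ, nsmul_eq_mul]; ring
  have : 0 ≤ (Fintype.card α : ℝ) ^ 2 * ⟪u, u⟫_ℝ - ∑ a, ⟪u, ∑ b, ρ (swap a b) u⟫_ℝ := by
    linarith
  positivity

/-- the linear version of `ρ`. -/
noncomputable def lin (ρ : Perm α →* (EuclideanSpace ℝ (Perm α) →L[ℝ] EuclideanSpace ℝ (Perm α))) : Perm α →* (EuclideanSpace ℝ (Perm α) →ₗ[ℝ] EuclideanSpace ℝ (Perm α)) where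
  toFun g := (ρ g : EuclideanSpace ℝ (Perm α) →ₗ[ℝ] EuclideanSpace ℝ (Perm α))
  map_one' := by rw [map_one]; rfl
  map_mul' g h := by rw [map_mul]; rfl

theorem lin_apply (g : Perm α) (u : EuclideanSpace ℝ (Perm α)) : lin ρ g u = ρ g u := rfl

/-- invariance under all permutations of a class. -/
theorem inv_ofSubtype {c : α → α} {u : EuclideanSpace ℝ (Perm α)} (hu : Inv (lin ρ) c u) (l : α)
    (f : Perm {x // c x = l}) : ρ (Perm.ofSubtype f) u = u := by
  induction f using Equiv.Perm.swap_induction_on with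
  | one => rw [map_one, reg_one]
  | swap_mul f x y _ ih =>
    rw [map_mul, reg_mul, ih, Equiv.Perm.ofSubtype_swap_eq]
    exact hu _ _ (by rw [x.2, y.2])

theorem inv_of_fix {c : α → α} {u : EuclideanSpace ℝ (Perm α)} (hu : Inv (lin ρ) c u) (l : α) (g : Perm α)
    (hg : ∀ z, c z ≠ l → g z = z) : ρ g u = u := by
  have h2 : ∀ x, g x ≠ x → c x = l := by
    intro x hx
    by_contra h
    exact hx (hg x h)
  have h1 : ∀ x, c (g x) = l ↔ c x = l := by
    intro x
    by_cases hx : g x = x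
    · rw [hx]
    · have h3 := h2 x hx
      have h4 : g (g x) ≠ g x := fun h => hx (g.injective h)
      exact ⟨fun _ => h3, fun _ => h2 _ h4⟩
  have h3 := Equiv.Perm.ofSubtype_subtypePerm (f := g) (p := fun x => c x = l) h1 h2
  rw [← h3]
  exact inv_ofSubtype hu l _

/-- a vector invariant under the permutations of a large class is a junta. -/
theorem mem_L_of_inv [Nonempty α] (hρ : IsReg ρ) {c : α → α} {u : EuclideanSpace ℝ (Perm α)} (hu : Inv (lin ρ) c u)
    (l : α) {j : ℕ} (hj : Fintype.card α ≤ (cl c l).card + j) : u ∈ L α j := by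
  classical
  -- a tuple covering the complement of the class
  have hcard : (univ.filter fun a => c a ≠ l).card ≤ j := by
    have h1 := Finset.card_filter_add_card_filter_not (s := (univ : Finset α)) fun a => c a = l
    rw [Finset.card_univ] at h1
    have h2 : (cl c l).card = (univ.filter fun a => c a = l).card := rfl
    have h3 : (univ.filter fun a => c a ≠ l).card = (univ.filter fun a => ¬ c a = l).card := rfl
    omega
  obtain ⟨x, hx⟩ : ∃ x : Fin j → α, ∀ z, c z ≠ l → ∃ i, x i = z := by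
    let s := univ.filter fun a => c a ≠ l
    let e := s.equivFin
    refine ⟨fun i => if h : (i : ℕ) < s.card then (e.symm ⟨i, h⟩ : α) else Classical.arbitrary α,
      fun z hz => ?_⟩
    have hzs : z ∈ s := by simp [s, hz]
    have h1 : ((e ⟨z, hzs⟩ : Fin s.card) : ℕ) < j := lt_of_lt_of_le (e ⟨z, hzs⟩).2 hcard
    refine ⟨⟨(e ⟨z, hzs⟩ : Fin s.card), h1⟩, ?_⟩
    simp
  -- u depends only on the values of `h⁻¹` at the `x i`
  have hdep : ∀ h h' : Perm α, (∀ i, h⁻¹ (x i) = h'⁻¹ (x i)) → u h = u h' := by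
    intro h h' hh
    have h1 : ρ (h' * h⁻¹) u = u := by
      apply inv_of_fix hu l
      intro z hz
      obtain ⟨i, rfl⟩ := hx z hz
      rw [Perm.mul_apply, hh i]
      simp
    have h2 := congrArg (fun w : EuclideanSpace ℝ (Perm α) => w h') h1
    simp only at h2
    rw [hρ] at h2
    rw [← h2]
    congr 1
    simp [mul_assoc]
  let val : (Fin j → α) → ℝ := fun y =>
    if hy : ∃ h : Perm α, ∀ i, h⁻¹ (x i) = y i then u hy.choose else 0
  have hu' : u = ∑ y : Fin j → α, val y • jun (x, y) := by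
    ext h
    simp only [WithLp.ofLp_sum, WithLp.ofLp_smul, Finset.sum_apply, Pi.smul_apply, smul_eq_mul]
    rw [Finset.sum_eq_single (fun i => h⁻¹ (x i))]
    · have hy : ∃ h' : Perm α, ∀ i, h'⁻¹ (x i) = (fun i => h⁻¹ (x i)) i := ⟨h, fun _ => rfl⟩
      have h1 : val (fun i => h⁻¹ (x i)) = u hy.choose := by
        simp only [val]; rw [dif_pos hy]
      have h2 := hy.choose_spec
      rw [h1]
      have h3 : jun (x, fun i => h⁻¹ (x i)) h = (1 : ℝ) := by rw [jun_apply]; simp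
      have h4 : (jun (x, fun i => h⁻¹ (x i))).ofLp h = (1 : ℝ) := h3
      rw [h4, mul_one]
      exact hdep _ _ fun i => (h2 i).symm
    · intro y _ hy
      have h3 : jun (x, y) h = (0 : ℝ) := by
        rw [jun_apply, if_neg]
        intro hcon
        exact hy (funext fun i => (hcon i).symm)
      have h4 : (jun (x, y)).ofLp h = (0 : ℝ) := h3
      rw [h4, mul_zero]
    · intro hcon
      exact absurd (Finset.mem_univ _) hcon
  rw [hu']
  exact Submodule.sum_mem _ fun y _ => Submodule.smul_mem _ _ (jun_mem _)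

/-- the eigenvectors orthogonal to the juntas have large eigenvalues. -/
theorem eig_key [Nonempty α] (hρ : IsReg ρ) {j : ℕ} {v : EuclideanSpace ℝ (Perm α)} {lam : ℝ} (hv0 : v ≠ 0)
    (hv : v ∈ (L α j)ᗮ) (hR : H474.R ρ v = lam • v) :
    j + 1 ≤ Fintype.card α ∧ (Fintype.card α : ℝ) * (j + 1) / 2 ≤ lam := by
  classical
  let E : Submodule ℝ (EuclideanSpace ℝ (Perm α)) :=
    (L α j)ᗮ ⊓ LinearMap.ker ((H474.R ρ : EuclideanSpace ℝ (Perm α) →ₗ[ℝ] EuclideanSpace ℝ (Perm α)) - lam • LinearMap.id)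
  have hEmem : ∀ u, u ∈ E ↔ u ∈ (L α j)ᗮ ∧ H474.R ρ u = lam • u := by
    intro u
    simp only [E, Submodule.mem_inf, LinearMap.mem_ker, LinearMap.sub_apply, LinearMap.smul_apply,
      LinearMap.id_apply, sub_eq_zero]
    rfl
  have hE : ∀ g, ∀ u ∈ E, lin ρ g u ∈ E := by
    intro g u hu
    rw [hEmem] at hu ⊢
    refine ⟨reg_mem_orth hρ g hu.1, ?_⟩
    rw [lin_apply]
    rw [R_comm, hu.2, map_smul]
  have hne : E ≠ ⊥ := by
    intro h
    apply hv0
    have : v ∈ E := (hEmem v).2 ⟨hv, hR⟩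
    rw [h] at this
    exact (Submodule.mem_bot ℝ).1 this
  have hτ : ∀ u ∈ E, ∑ a, ∑ b, lin ρ (swap a b) u =
      ((Fintype.card α : ℝ) ^ 2 - 2 * lam) • u := by
    intro u hu
    have h1 := ((hEmem u).1 hu).2
    rw [R_apply] at h1
    have h2 : (2 : ℝ) • ((1/2 : ℝ) • (((Fintype.card α : ℝ) ^ 2) • u -
        ∑ a, ∑ b, ρ (swap a b) u)) = (2 : ℝ) • (lam • u) := by rw [h1]
    rw [smul_smul, smul_smul] at h2
    norm_num at h2
    simp_rw [lin_apply]
    rw [sub_smul, ← h2]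
    abel
  obtain ⟨c, ⟨u, huE, hu0, hinv⟩, hle⟩ := exists_color (lin ρ) E hE hne _ hτ
  have huL := ((hEmem u).1 huE).1
  have hcl : ∀ l, (cl c l).card + (j + 1) ≤ Fintype.card α := by
    intro l
    by_contra hcon
    have h1 : u ∈ L α j := mem_L_of_inv hρ hinv l (by omega)
    have h2 := Submodule.inner_right_of_mem_orthogonal h1 huL
    exact hu0 (inner_self_eq_zero.1 h2)
  obtain ⟨l0⟩ := ‹Nonempty α›
  refine ⟨le_trans (Nat.le_add_left _ _) (hcl l0), ?_⟩
  have h1 : ∑ l, ((cl c l).card : ℝ) ^ 2 ≤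
      ((Fintype.card α : ℝ) - (j + 1)) * Fintype.card α := by
    have h2 : ∀ l, ((cl c l).card : ℝ) ^ 2 ≤
        ((Fintype.card α : ℝ) - (j + 1)) * (cl c l).card := by
      intro l
      have h3 : ((cl c l).card : ℝ) + ((j : ℝ) + 1) ≤ Fintype.card α := by exact_mod_cast hcl l
      have h4 : (0 : ℝ) ≤ (cl c l).card := by positivity
      nlinarith
    calc ∑ l, ((cl c l).card : ℝ) ^ 2
        ≤ ∑ l, ((Fintype.card α : ℝ) - (j + 1)) * (cl c l).card :=
          Finset.sum_le_sum fun l _ => h2 l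
      _ = ((Fintype.card α : ℝ) - (j + 1)) * Fintype.card α := by
          rw [← Finset.mul_sum, ← Nat.cast_sum, sum_card_cl]
  nlinarith [hle, h1]

end Vale.Agent.P162.H289
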