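import Vale.Agent.P162.H289.Junta
import Vale.Agent.P162.H474.Main
import Vale.Agent.P162.H72.Stage1

/-!
# Heat kernel of the interchange process at the identity

`card (Perm α) * ⟪δ_1, exp (-c R) δ_1⟫ ≤ ∑_{k ≤ n} (n² exp (-c n / 2)) ^ k`.
-/

open Equiv Finset
open scoped InnerProductSpace

set_option linter.unusedSectionVars false
set_option linter.deprecated false

namespace Vale.Agent.P162.H289

theorem inner_exp_of_eig {V : Type*} [NormedAddCommGroup V] [InnerProductSpace ℝ V]
    [CompleteSpace V] {A : V →L[ℝ] V} {v : V} {μ : ℝ} (h : A v = μ • v) (w : V) :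
    ⟪w, NormedSpace.exp A v⟫_ℝ = Real.exp μ * ⟪w, v⟫_ℝ := by
  have h1 := H474.hasSum_inner_exp A w v
  have h2 : ∀ k : ℕ, (A ^ k) v = μ ^ k • v := by
    intro k
    induction k with
    | zero => simp
    | succ k ih =>
      rw [pow_succ', ContinuousLinearMap.mul_apply, ih, map_smul, h, smul_smul, pow_succ]
  have h3 := (NormedSpace.expSeries_div_hasSum_exp μ).mul_right ⟪w, v⟫_ℝ
  rw [← Real.exp_eq_exp_ℝ] at h3
  refine h1.unique ?_
  have h4 : (fun k : ℕ => ((k.factorial : ℝ)⁻¹ * ⟪w, (A ^ k) v⟫_ℝ)) =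
      fun k : ℕ => μ ^ k / (k.factorial : ℝ) * ⟪w, v⟫_ℝ := by
    funext k
    rw [h2, inner_smul_right]
    ring
  rw [h4]
  exact h3

theorem commute_neg_smul {V : Type*} [NormedAddCommGroup V] [InnerProductSpace ℝ V]
    {A B : V →L[ℝ] V} (h : Commute A B) (c : ℝ) : Commute A (-(c • B)) :=
  (h.smul_right c).neg_right

variable {α : Type*} [Fintype α] [DecidableEq α]
variable {ρ : Perm α →* (EuclideanSpace ℝ (Perm α) →L[ℝ] EuclideanSpace ℝ (Perm α))}

/-- right translation. -/
noncomputable def Rt (g : Perm α) :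
    EuclideanSpace ℝ (Perm α) ≃ₗᵢ[ℝ] EuclideanSpace ℝ (Perm α) :=
  LinearIsometryEquiv.piLpCongrLeft 2 ℝ ℝ (Equiv.mulRight g)

theorem Rt_apply (g : Perm α) (f : EuclideanSpace ℝ (Perm α)) (h : Perm α) :
    Rt g f h = f (h * g⁻¹) := rfl

theorem Rt_single (g : Perm α) :
    Rt g (EuclideanSpace.single 1 1) = EuclideanSpace.single g 1 := by
  rw [Rt, LinearIsometryEquiv.piLpCongrLeft_single]
  simp

/-- the operator of the right translation. -/
noncomputable def RtL (g : Perm α) : EuclideanSpace ℝ (Perm α) →L[ℝ] EuclideanSpace ℝ (Perm α) :=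
  (Rt g).toContinuousLinearEquiv.toContinuousLinearMap

theorem RtL_apply (g : Perm α) (f : EuclideanSpace ℝ (Perm α)) : RtL g f = Rt g f := rfl

theorem RtL_commute (hρ : IsReg ρ) (g h : Perm α) : Commute (RtL g) (ρ h) := by
  rw [Commute, SemiconjBy]
  ext f x
  rw [ContinuousLinearMap.mul_apply, ContinuousLinearMap.mul_apply, RtL_apply, RtL_apply,
    Rt_apply, hρ, hρ, Rt_apply, mul_assoc]

theorem RtL_commute_R (hρ : IsReg ρ) (g : Perm α) : Commute (RtL g) (H474.R ρ) :=
  H474.commute_R_of fun h => RtL_commute hρ g h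

theorem inner_single_exp (hρ : IsReg ρ) (c : ℝ) (g : Perm α) :
    ⟪(EuclideanSpace.single g 1 : EuclideanSpace ℝ (Perm α)),
      NormedSpace.exp (-(c • H474.R ρ)) (EuclideanSpace.single g 1)⟫_ℝ =
    ⟪(EuclideanSpace.single 1 1 : EuclideanSpace ℝ (Perm α)),
      NormedSpace.exp (-(c • H474.R ρ)) (EuclideanSpace.single 1 1)⟫_ℝ := by
  have h1 : Commute (RtL g) (NormedSpace.exp (-(c • H474.R ρ))) :=
    (commute_neg_smul (RtL_commute_R hρ g) c).exp_right
  have h2 : NormedSpace.exp (-(c • H474.R ρ)) (Rt g (EuclideanSpace.single 1 1)) =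
      Rt g (NormedSpace.exp (-(c • H474.R ρ)) (EuclideanSpace.single 1 1)) := by
    rw [← RtL_apply, ← RtL_apply, ← ContinuousLinearMap.mul_apply,
      ← ContinuousLinearMap.mul_apply, h1.eq]
  rw [← Rt_single g, h2, LinearIsometryEquiv.inner_map_map]

theorem card_mul_inner_exp_eq (hρ : IsReg ρ) (c : ℝ) {ι : Type*} [Fintype ι]
    (b : OrthonormalBasis ι ℝ (EuclideanSpace ℝ (Perm α))) :
    (Fintype.card (Perm α) : ℝ) * ⟪(EuclideanSpace.single 1 1 : EuclideanSpace ℝ (Perm α)),
      NormedSpace.exp (-(c • H474.R ρ)) (EuclideanSpace.single 1 1)⟫_ℝ =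
    ∑ i, ⟪b i, NormedSpace.exp (-(c • H474.R ρ)) (b i)⟫_ℝ := by
  have h1 := LinearMap.trace_eq_sum_inner
    (NormedSpace.exp (-(c • H474.R ρ)) :
      EuclideanSpace ℝ (Perm α) →L[ℝ] EuclideanSpace ℝ (Perm α)).toLinearMap b
  have h2 := LinearMap.trace_eq_sum_inner
    (NormedSpace.exp (-(c • H474.R ρ)) :
      EuclideanSpace ℝ (Perm α) →L[ℝ] EuclideanSpace ℝ (Perm α)).toLinearMap
    (EuclideanSpace.basisFun (Perm α) ℝ)
  have h3 : ∑ g : Perm α, ⟪(EuclideanSpace.single g 1 : EuclideanSpace ℝ (Perm α)),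
      NormedSpace.exp (-(c • H474.R ρ)) (EuclideanSpace.single g 1)⟫_ℝ =
      (Fintype.card (Perm α) : ℝ) * ⟪(EuclideanSpace.single 1 1 : EuclideanSpace ℝ (Perm α)),
      NormedSpace.exp (-(c • H474.R ρ)) (EuclideanSpace.single 1 1)⟫_ℝ := by
    simp_rw [inner_single_exp hρ c]
    rw [Finset.sum_const, Finset.card_univ, nsmul_eq_mul]
  rw [← h3]
  simp only [EuclideanSpace.basisFun_apply] at h2
  exact h2.symm.trans h1

/-- an eigenvector of eigenvalue `lam` is in the span of the `k`-juntas,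
`k = min ⌊2 lam / n⌋ n`. -/
theorem eig_mem_L [Nonempty α] (hρ : IsReg ρ) {e : EuclideanSpace ℝ (Perm α)} {lam : ℝ}
    (hR : H474.R ρ e = lam • e) :
    e ∈ L α (min ⌊2 * lam / Fintype.card α⌋₊ (Fintype.card α)) := by
  set j := min ⌊2 * lam / Fintype.card α⌋₊ (Fintype.card α) with hj
  by_contra hcon
  let p : EuclideanSpace ℝ (Perm α) := (L α j).starProjection e
  have hp : p ∈ L α j := Submodule.starProjection_apply_mem _ _
  have hv : e - p ∈ (L α j)ᗮ := Submodule.sub_starProjection_mem_orthogonal e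
  have hv0 : e - p ≠ 0 := by
    intro h
    rw [sub_eq_zero] at h
    exact hcon (h ▸ hp)
  have h1 : H474.R ρ (e - p) - lam • (e - p) = lam • p - H474.R ρ p := by
    rw [map_sub, hR, smul_sub]
    abel
  have h2 : H474.R ρ (e - p) - lam • (e - p) ∈ (L α j)ᗮ := by
    refine Submodule.sub_mem _ ?_ (Submodule.smul_mem _ _ hv)
    rw [R_apply]
    exact Submodule.smul_mem _ _ (Submodule.sub_mem _ (Submodule.smul_mem _ _ hv)
      (Submodule.sum_mem _ fun a _ => Submodule.sum_mem _ fun b _ => reg_mem_orth hρ _ hv))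
  have h3 : lam • p - H474.R ρ p ∈ L α j :=
    Submodule.sub_mem _ (Submodule.smul_mem _ _ hp) (R_mem_L hρ hp)
  have h4 : H474.R ρ (e - p) - lam • (e - p) = 0 := by
    rw [h1] at h2
    have h5 := Submodule.inner_right_of_mem_orthogonal h3 h2
    rw [h1]
    exact inner_self_eq_zero.1 h5
  obtain ⟨h5, h6⟩ := eig_key hρ hv0 hv (sub_eq_zero.1 h4)
  have hn : (0 : ℝ) < Fintype.card α := by exact_mod_cast Fintype.card_pos
  have h7 : ((j + 1 : ℕ) : ℝ) ≤ 2 * lam / Fintype.card α := by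
    rw [le_div_iff₀ hn]
    push_cast
    linarith
  have h8 : j + 1 ≤ ⌊2 * lam / Fintype.card α⌋₊ := Nat.le_floor h7
  have h9 : j + 1 ≤ min ⌊2 * lam / Fintype.card α⌋₊ (Fintype.card α) := le_min h8 h5
  omega

/-- **Part C**: the heat kernel bound. -/
theorem card_mul_inner_exp_le [Nonempty α] (hρ : IsReg ρ) {c : ℝ} (hc : 0 ≤ c) :
    (Fintype.card (Perm α) : ℝ) * ⟪(EuclideanSpace.single 1 1 : EuclideanSpace ℝ (Perm α)),
      NormedSpace.exp (-(c • H474.R ρ)) (EuclideanSpace.single 1 1)⟫_ℝ ≤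
    ∑ k ∈ Finset.range (Fintype.card α + 1),
      ((Fintype.card α : ℝ) ^ 2 * Real.exp (-(c * Fintype.card α / 2))) ^ k := by
  classical
  have hS := R_symm hρ
  set N := Module.finrank ℝ (EuclideanSpace ℝ (Perm α)) with hN
  let b := hS.eigenvectorBasis hN.symm
  let lam : Fin N → ℝ := hS.eigenvalues hN.symm
  have hb : ∀ i, H474.R ρ (b i) = lam i • b i := fun i => hS.apply_eigenvectorBasis hN.symm i
  let κ : Fin N → ℕ := fun i => min ⌊2 * lam i / Fintype.card α⌋₊ (Fintype.card α)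
  have hmem : ∀ i, b i ∈ L α (κ i) := fun i => eig_mem_L hρ (hb i)
  have hn : (0 : ℝ) < Fintype.card α := by exact_mod_cast Fintype.card_pos
  have hlam : ∀ i, 0 ≤ lam i := by
    intro i
    have h1 := R_nonneg hρ (b i)
    rw [hb, inner_smul_right, real_inner_self_eq_norm_sq, b.norm_eq_one] at h1
    simpa using h1
  have hκ : ∀ i, (Fintype.card α : ℝ) * κ i / 2 ≤ lam i := by
    intro i
    have h1 : (κ i : ℝ) ≤ ⌊2 * lam i / Fintype.card α⌋₊ := by
      exact_mod_cast min_le_left _ _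
    have h2 : (⌊2 * lam i / Fintype.card α⌋₊ : ℝ) ≤ 2 * lam i / Fintype.card α :=
      Nat.floor_le (by have := hlam i; positivity)
    have h3 := h1.trans h2
    rw [le_div_iff₀ hn] at h3
    linarith
  rw [card_mul_inner_exp_eq hρ c b]
  have hterm : ∀ i, ⟪b i, NormedSpace.exp (-(c • H474.R ρ)) (b i)⟫_ℝ ≤
      Real.exp (-(c * Fintype.card α / 2)) ^ κ i := by
    intro i
    have h1 : (-(c • H474.R ρ)) (b i) = (-(c * lam i)) • b i := by
      rw [ContinuousLinearMap.neg_apply, ContinuousLinearMap.smul_apply, hb, smul_smul, neg_smul]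
    rw [inner_exp_of_eig h1, real_inner_self_eq_norm_sq, b.norm_eq_one, one_pow, mul_one,
      ← Real.exp_nat_mul]
    apply Real.exp_le_exp.2
    have h2 := mul_le_mul_of_nonneg_left (hκ i) hc
    nlinarith
  refine (Finset.sum_le_sum fun i _ => hterm i).trans ?_
  have hmaps : ∀ i ∈ (Finset.univ : Finset (Fin N)), κ i ∈ Finset.range (Fintype.card α + 1) := by
    intro i _
    rw [Finset.mem_range, Nat.lt_succ_iff]
    exact min_le_right _ _
  rw [← Finset.sum_fiberwise_of_maps_to hmaps]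
  refine Finset.sum_le_sum fun k _ => ?_
  have h1 : ∑ i ∈ Finset.univ.filter (fun i => κ i = k),
      Real.exp (-(c * Fintype.card α / 2)) ^ κ i =
      ((Finset.univ.filter fun i => κ i = k).card : ℝ) *
        Real.exp (-(c * Fintype.card α / 2)) ^ k := by
    rw [← nsmul_eq_mul, ← Finset.sum_const]
    refine Finset.sum_congr rfl fun i hi => ?_
    rw [(Finset.mem_filter.1 hi).2]
  rw [h1, mul_pow]
  refine mul_le_mul_of_nonneg_right ?_ (by positivity)
  -- counting
  have hli : LinearIndependent ℝ (fun i : {i : Fin N // κ i = k} =>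
      (⟨b i, by have := hmem i; rw [i.2] at this; exact this⟩ : L α k)) := by
    have h2 : LinearIndependent ℝ fun i : {i : Fin N // κ i = k} => b (i : Fin N) :=
      b.orthonormal.linearIndependent.comp _ Subtype.val_injective
    exact LinearIndependent.of_comp (L α k).subtype h2
  have h3 := hli.fintype_card_le_finrank
  have h4 := h3.trans (finrank_L k)
  rw [Fintype.card_subtype] at h4
  rw [← pow_mul]
  exact_mod_cast h4

/-- Part C in the form used by stage 1. -/
theorem levelBound (d : ℕ) : H72.LevelBound d := by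
  intro c hc
  have : Nonempty (H474.X d) := Fintype.card_pos_iff.1 (by rw [H474.card_X]; positivity)
  have h := card_mul_inner_exp_le (α := H474.X d) (ρ := H72.reg (Perm (H474.X d)))
    (fun g f h => H72.reg_apply g f h) hc
  have hcard : (Fintype.card (H474.X d) : ℝ) = 2 ^ d := by
    rw [H474.card_X]; push_cast; rfl
  rw [hcard] at h
  rw [H474.card_X] at h
  have h2 : Finset.range (2 ^ d + 1) = insert 0 (Finset.Icc 1 (2 ^ d)) := by
    ext k
    simp only [Finset.mem_range, Finset.mem_insert, Finset.mem_Icc]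
    generalize 2 ^ d = m
    omega
  rw [h2, Finset.sum_insert (by simp), pow_zero] at h
  linarith

/-- **Stage 1** for P162. -/
theorem tmix_le_sq (d : ℕ) : tmix (2 ^ d) ≤ (d + 1) * (256 * (d + 1)) :=
  (H72.tv_le_of_levelBound d (levelBound (d + 1))).2

end Vale.Agent.P162.H289
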